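import Vale.Agent.Lib.P072G.Car3

open Vale.Agent.Lib.P072 Vale.Agent.Lib.P072G

/-- The permanence conjecture in its stronger form: every weakly reversible mass-action system is
permanent on every positive stoichiometric class, with measurable rates varying in time within fixed
positive bounds, for solutions of the integral equation (Caratheodory solutions). The compact set
`K` depends only on the network, on the bounds of the rates and on the class. -/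
theorem Vale.Agent.Results.P072.A000_measurable.result {d : ℕ} (R : Finset (Cplx d × Cplx d))
    (hWR : WeaklyReversible R) (ε : ℝ) (hε : 0 < ε)
    (c : Fin d → ℝ) (hc : ∀ i, 0 < c i) :
    ∃ K : Set (Fin d → ℝ), IsCompact K ∧ (∀ x ∈ K, (∀ i, 0 < x i) ∧ x - c ∈ stoich R) ∧
      ∀ x₁ : Fin d → ℝ, (∀ i, 0 < x₁ i) → x₁ - c ∈ stoich R →
        (∃ K₁ : Set (Fin d → ℝ), IsCompact K₁ ∧ (∀ x ∈ K₁, (∀ i, 0 < x i) ∧ x - c ∈ stoich R) ∧
          ∃ T₀ : ℝ, ∀ (k : ℝ → Cplx d × Cplx d → ℝ) (T : ℝ) (x : ℝ → Fin d → ℝ),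
            (∀ t p, ε ≤ k t p ∧ k t p ≤ ε⁻¹) → (∀ p, Measurable fun t => k t p) →
            ContinuousOn x (Set.Ico 0 T) →
            (∀ t ∈ Set.Ico 0 T, (∀ i, 0 < x t i) ∧
              x t = x₁ + ∫ s in (0 : ℝ)..t, massAction R (k s) (x s)) →
            ∀ t ∈ Set.Ico 0 T, x t ∈ K₁ ∧ (T₀ ≤ t → x t ∈ K)) ∧
        (∀ k : ℝ → Cplx d × Cplx d → ℝ, (∀ t p, ε ≤ k t p ∧ k t p ≤ ε⁻¹) →
          (∀ p, Measurable fun t => k t p) →
          ∃ x : ℝ → Fin d → ℝ, ContinuousOn x (Set.Ici 0) ∧ ∀ t, 0 ≤ t → (∀ i, 0 < x t i) ∧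
            x t = x₁ + ∫ s in (0 : ℝ)..t, massAction R (k s) (x s)) := by
  obtain ⟨K, hK, hKS, hmain⟩ := permanent_car hWR hε hc
  refine ⟨K, hK, hKS, ?_⟩
  intro x₁ hx₁ hx₁S
  obtain ⟨K₁, hK₁, hK₁S, T₀, h⟩ := hmain x₁ hx₁ hx₁S
  have hx0 : ∀ (k : ℝ → Cplx d × Cplx d → ℝ) (x : ℝ → Fin d → ℝ),
      x 0 = x₁ → ∀ t, (x t = x₁ + ∫ s in (0 : ℝ)..t, massAction R (k s) (x s)) →
      x t = x 0 + ∫ s in (0 : ℝ)..t, massAction R (k s) (x s) := by
    intro k x h0 t ht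
    rw [h0]
    exact ht
  refine ⟨⟨K₁, hK₁, hK₁S, T₀, ?_⟩, ?_⟩
  · intro k T x hk hkm hcont hsol t ht
    have h00 : x 0 = x₁ := by
      have h1 := (hsol 0 ⟨le_rfl, lt_of_le_of_lt ht.1 ht.2⟩).2
      simpa using h1
    exact h k T x hk hkm ⟨hcont, fun s hs => (hsol s hs).1,
      fun s hs => hx0 k x h00 s (hsol s hs).2⟩ h00 t ht
  · intro k hk hkm
    obtain ⟨m, M, hm, hmM, hx₁m, hKm⟩ := bounds_of_compact hK₁ (fun x hx => (hK₁S x hx).1) hx₁
    have hkb : ∀ t p, |k t p| ≤ ε⁻¹ := by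
      intro t p
      rw [abs_of_pos (lt_of_lt_of_le hε (hk t p).1)]
      exact (hk t p).2
    obtain ⟨x, _, hcont, hsol⟩ := exists_global_car R hkm hkb (by positivity) hm hmM hx₁m
      (fun T x hx hx0 t ht => hKm _ (h k T x hk hkm hx hx0 t ht).1)
    exact ⟨x, hcont, hsol⟩
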