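import Vale.Agent.Lib.P072G.Perm3

open Vale.Agent.Lib.P072 Vale.Agent.Lib.P072G

/-- The permanence conjecture: every weakly reversible mass-action system is permanent on every
positive stoichiometric class, also with rates varying in time within fixed positive bounds. The
compact set `K` depends only on the network, on the bounds of the rates and on the class. -/
theorem Vale.Agent.Results.P072.A00_permanence.result {d : ℕ} (R : Finset (Cplx d × Cplx d))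
    (hWR : WeaklyReversible R) (ε : ℝ) (hε : 0 < ε)
    (c : Fin d → ℝ) (hc : ∀ i, 0 < c i) :
    ∃ K : Set (Fin d → ℝ), IsCompact K ∧ (∀ x ∈ K, (∀ i, 0 < x i) ∧ x - c ∈ stoich R) ∧
      ∀ x₁ : Fin d → ℝ, (∀ i, 0 < x₁ i) → x₁ - c ∈ stoich R →
        (∃ K₁ : Set (Fin d → ℝ), IsCompact K₁ ∧ (∀ x ∈ K₁, (∀ i, 0 < x i) ∧ x - c ∈ stoich R) ∧
          ∃ T₀ : ℝ, ∀ (k : ℝ → Cplx d × Cplx d → ℝ) (T : ℝ) (x : ℝ → Fin d → ℝ),
            (∀ t p, ε ≤ k t p ∧ k t p ≤ ε⁻¹) → x 0 = x₁ → ContinuousOn x (Set.Ico 0 T) →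
            (∀ t ∈ Set.Ico 0 T, (∀ i, 0 < x t i) ∧
              HasDerivWithinAt x (massAction R (k t) (x t)) (Set.Ici t) t) →
            ∀ t ∈ Set.Ico 0 T, x t ∈ K₁ ∧ (T₀ ≤ t → x t ∈ K)) ∧
        (∀ k : ℝ → Cplx d × Cplx d → ℝ, (∀ t p, ε ≤ k t p ∧ k t p ≤ ε⁻¹) →
          (∀ p, Continuous fun t => k t p) →
          ∃ x : ℝ → Fin d → ℝ, x 0 = x₁ ∧ ∀ t, 0 ≤ t → (∀ i, 0 < x t i) ∧
            HasDerivWithinAt x (massAction R (k t) (x t)) (Set.Ici 0) t) := by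
  obtain ⟨K, hK, hKS, hmain⟩ := permanent hWR hε hc
  refine ⟨K, hK, hKS, ?_⟩
  intro x₁ hx₁ hx₁S
  obtain ⟨K₁, hK₁, hK₁S, T₀, h⟩ := hmain x₁ hx₁ hx₁S
  refine ⟨⟨K₁, hK₁, hK₁S, T₀, ?_⟩, ?_⟩
  · intro k T x hk hx0 hcont hsol t ht
    exact h k T x hk ⟨hcont, fun s hs => (hsol s hs).1, fun s hs => (hsol s hs).2⟩ hx0 t ht
  · intro k hk hkc
    exact global_exists hWR hε hk hkc hx₁
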