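import Vale.Agent.Lib.P072G.Global

open Vale.Agent.Lib.P072 Vale.Agent.Lib.P072G

/-- Boundedness of all positive trajectories of all weakly reversible mass-action systems, whatever
the number of linkage classes and the dimension of the stoichiometric subspace, with rates varying
in time within fixed positive bounds; the bound is uniform on bounded sets of initial points.
Solutions exist for all positive times when the rates are continuous. -/
theorem Vale.Agent.Results.P072.A0_bounded.result {d : ℕ} (R : Finset (Cplx d × Cplx d))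
    (hWR : WeaklyReversible R) (ε : ℝ) (hε : 0 < ε) :
    (∀ ρ : ℝ, ∃ ρ' : ℝ, ∀ (k : ℝ → Cplx d × Cplx d → ℝ) (T : ℝ) (x : ℝ → Fin d → ℝ),
      (∀ t p, ε ≤ k t p ∧ k t p ≤ ε⁻¹) → ContinuousOn x (Set.Ico 0 T) →
      (∀ t ∈ Set.Ico 0 T, (∀ i, 0 < x t i) ∧
        HasDerivWithinAt x (massAction R (k t) (x t)) (Set.Ici t) t) →
      (∀ i, x 0 i ≤ ρ) → ∀ t ∈ Set.Ico 0 T, ∀ i, x t i ≤ ρ') ∧
    (∀ x₁ : Fin d → ℝ, (∀ i, 0 < x₁ i) → ∀ k : ℝ → Cplx d × Cplx d → ℝ,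
      (∀ t p, ε ≤ k t p ∧ k t p ≤ ε⁻¹) → (∀ p, Continuous fun t => k t p) →
      ∃ x : ℝ → Fin d → ℝ, x 0 = x₁ ∧ ∀ t, 0 ≤ t → (∀ i, 0 < x t i) ∧
        HasDerivWithinAt x (massAction R (k t) (x t)) (Set.Ici 0) t) := by
  refine ⟨fun ρ => ?_, fun x₁ hx₁ k hk hkc => global_exists hWR hε hk hkc hx₁⟩
  obtain ⟨ρ', hρ'⟩ := bounded_sol hWR hε ρ
  refine ⟨ρ', fun k T x hk hcont hsol hρ t ht i => ?_⟩
  exact hρ' k T x hk ⟨hcont, fun s hs => (hsol s hs).1, fun s hs => (hsol s hs).2⟩ hρ t ht i
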