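import Vale.Agent.Lib.P072.PermExist

open Vale.Agent.Lib.P072

/-- Permanence of weakly reversible mass-action systems whose stoichiometric subspace has dimension
at most two: rates may depend on time within fixed positive bounds. The compact set `K` depends only
on the network, on the bounds of the rates and on the stoichiometric class. -/
theorem Vale.Agent.Results.P072.A_permanence.result {d : ℕ} (R : Finset (Cplx d × Cplx d))
    (hne : ∀ p ∈ R, p.1 ≠ p.2) (hWR : WeaklyReversible R)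
    (hdim : Module.finrank ℝ (stoich R) ≤ 2) (ε : ℝ) (hε : 0 < ε)
    (c : Fin d → ℝ) (hc : ∀ i, 0 < c i) :
    ∃ K : Set (Fin d → ℝ), IsCompact K ∧ (∀ x ∈ K, (∀ i, 0 < x i) ∧ x - c ∈ stoich R) ∧
      ∀ x₁ : Fin d → ℝ, (∀ i, 0 < x₁ i) → x₁ - c ∈ stoich R →
        (∃ K₁ : Set (Fin d → ℝ), IsCompact K₁ ∧ (∀ x ∈ K₁, (∀ i, 0 < x i) ∧ x - c ∈ stoich R) ∧
          ∃ T₀ : ℝ, ∀ (k : ℝ → Cplx d × Cplx d → ℝ) (T : ℝ) (x : ℝ → Fin d → ℝ),
            (∀ t p, ε ≤ k t p ∧ k t p ≤ ε⁻¹) → x 0 = x₁ → ContinuousOn x (Set.Ico 0 T) →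
            (∀ t ∈ Set.Ico 0 T, (∀ i, 0 < x t i) ∧
              HasDerivWithinAt x (massAction R (k t) (x t)) (Set.Ici t) t) →
            ∀ t ∈ Set.Ico 0 T, x t ∈ K₁ ∧ (T₀ ≤ t → x t ∈ K)) ∧
        (∀ k : ℝ → Cplx d × Cplx d → ℝ, (∀ t p, ε ≤ k t p ∧ k t p ≤ ε⁻¹) →
          (∀ p, Continuous fun t => k t p) →
          ∃ x : ℝ → Fin d → ℝ, x 0 = x₁ ∧ ∀ t, 0 ≤ t → (∀ i, 0 < x t i) ∧
            HasDerivWithinAt x (massAction R (k t) (x t)) (Set.Ici 0) t) := by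
  obtain ⟨K, hK, hKS, hmain⟩ := main_permanent R hne hWR hdim hε hc
  refine ⟨K, hK, hKS, ?_⟩
  intro x₁ hx₁ hx₁S
  obtain ⟨K₁, hK₁, hK₁S, T₀, h⟩ := hmain x₁ hx₁ hx₁S
  refine ⟨⟨K₁, hK₁, hK₁S, T₀, ?_⟩, ?_⟩
  · intro k T x hk hx0 hcont hsol t ht
    exact h k T x hk ⟨hcont, fun s hs => (hsol s hs).1, fun s hs => (hsol s hs).2⟩ hx0 t ht
  · intro k hk hkc
    obtain ⟨m, M, hm, hmM, hx₁m, hKm⟩ := bounds_of_compact hK₁ (fun x hx => (hK₁S x hx).1) hx₁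
    have hkb : ∀ t p, |k t p| ≤ ε⁻¹ := by
      intro t p
      rw [abs_of_pos (lt_of_lt_of_le hε (hk t p).1)]
      exact (hk t p).2
    obtain ⟨x, hx0, hsol, hder⟩ := exists_global R hkc hkb hm hmM hx₁m
      (fun T x hx hx0 t ht => hKm _ (h k T x hk hx hx0 t ht).1)
    refine ⟨x, hx0, fun t ht => ⟨?_, hder t ht⟩⟩
    exact (hsol (t + 1)).pos t ⟨ht, by linarith⟩
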